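import Vale.Agent.Lib.P125.Cube

namespace Vale.Agent.Results.P125.ConvexityModulus

open Vale.Agent.Lib.P125

theorem result (X : Type*) [NormedAddCommGroup X] [NormedSpace ℝ X] (p K : ℝ)
    (hp : 0 < p) (h : HasMarkovType X p K) :
    (∀ u v : X, ‖u + v‖ ^ p + ‖u - v‖ ^ p ≤ (4 * K ^ p - 2 ^ p / 2) * (‖u‖ ^ p + ‖v‖ ^ p)) ∧
    (∀ ε : ℝ, 0 < ε → 8 * K ^ p - 2 * 2 ^ p < ε ^ p →
      ∃ δ : ℝ, 0 < δ ∧ ∀ x y : X, ‖x‖ ≤ 1 → ‖y‖ ≤ 1 → ε ≤ ‖x - y‖ →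
        ‖(1 / 2 : ℝ) • (x + y)‖ ≤ 1 - δ) := by
  refine ⟨fun u v => nj_ineq hp h u v, ?_⟩
  intro ε hε hK
  have h2p : (0:ℝ) < 2 ^ p := Real.rpow_pos_of_pos (by norm_num) p
  set c := 4 * K ^ p - 2 ^ p / 2 with hc
  set θ := max (2 * c - ε ^ p) 0 with hθ
  have hθ0 : 0 ≤ θ := le_max_right _ _
  have hθ2 : θ < 2 ^ p := by
    rw [hθ]; apply max_lt _ h2p
    rw [hc]; linarith
  set r := θ ^ (1 / p) with hr
  have hr0 : 0 ≤ r := Real.rpow_nonneg hθ0 _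
  have hr2 : r < 2 := by
    have : r < (2 ^ p) ^ (1 / p) := Real.rpow_lt_rpow hθ0 hθ2 (by positivity)
    rwa [one_div, Real.rpow_rpow_inv (by norm_num) hp.ne'] at this
  refine ⟨1 - r / 2, by linarith, ?_⟩
  intro x y hx hy hxy
  have H := nj_ineq hp h x y
  rw [← hc] at H
  have hxp : ‖x‖ ^ p ≤ 1 := Real.rpow_le_one (norm_nonneg _) hx hp.le
  have hyp : ‖y‖ ^ p ≤ 1 := Real.rpow_le_one (norm_nonneg _) hy hp.le
  have hxp0 : 0 ≤ ‖x‖ ^ p := by positivity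
  have hyp0 : 0 ≤ ‖y‖ ^ p := by positivity
  have hε' : ε ^ p ≤ ‖x - y‖ ^ p := Real.rpow_le_rpow hε.le hxy hp.le
  have hεp : 0 < ε ^ p := Real.rpow_pos_of_pos hε p
  have hs0 : 0 ≤ ‖x + y‖ ^ p := by positivity
  have hcpos : 0 ≤ c := by
    by_contra hneg
    rw [not_le] at hneg
    have : c * (‖x‖ ^ p + ‖y‖ ^ p) ≤ 0 := mul_nonpos_of_nonpos_of_nonneg hneg.le (by linarith)
    linarith
  have h1 : ‖x + y‖ ^ p ≤ θ := by
    have : c * (‖x‖ ^ p + ‖y‖ ^ p) ≤ c * 2 := by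
      apply mul_le_mul_of_nonneg_left _ hcpos
      linarith
    refine le_trans ?_ (le_max_left _ _)
    linarith
  have h2 : ‖x + y‖ ≤ r := by
    have := Real.rpow_le_rpow hs0 h1 (by positivity : 0 ≤ 1 / p)
    rwa [one_div, Real.rpow_rpow_inv (norm_nonneg _) hp.ne', ← one_div] at this
  rw [norm_smul]
  norm_num
  linarith

end Vale.Agent.Results.P125.ConvexityModulus
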