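import Vale.Agent.Lib.P125.Cube

namespace Vale.Agent.Results.P125.JConvexSmallK

open Vale.Agent.Lib.P125

/-- If a real normed space has Markov type `p > 1` with a constant `K` satisfying
`K ^ p < 2 ^ (p - 1)`, then it is J-convex in the sense of James. -/
theorem result (X : Type*) [NormedAddCommGroup X] [NormedSpace ℝ X] (p K : ℝ)
    (hp : 1 < p) (hK : 0 ≤ K) (h : HasMarkovType X p K) (hKp : K ^ p < 2 ^ (p - 1)) :
    JConvex X :=
  jconvex_of_markov (by linarith) hK h hKp

end Vale.Agent.Results.P125.JConvexSmallK
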