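import Vale.Agent.Results.P125.ConstantOne
import Vale.Agent.Results.P125.ConvexityModulus
import Vale.Agent.Results.P125.JConvexSmallK

namespace Vale.Agent.Results.P125.A_Combined

open Vale.Agent.Lib.P125

/-- The three results on Markov type and convexity of the norm in one statement:
(1) small constants give J-convexity, (2) the Jordan-von Neumann type inequality and uniform
convexity above a threshold for every constant, (3) constant one forces a Hilbert space norm. -/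
theorem result (X : Type*) [NormedAddCommGroup X] [NormedSpace ℝ X] :
    (∀ p K : ℝ, 1 < p → 0 ≤ K → HasMarkovType X p K → K ^ p < 2 ^ (p - 1) → JConvex X) ∧
    (∀ p K : ℝ, 0 < p → HasMarkovType X p K →
      (∀ u v : X, ‖u + v‖ ^ p + ‖u - v‖ ^ p ≤ (4 * K ^ p - 2 ^ p / 2) * (‖u‖ ^ p + ‖v‖ ^ p)) ∧
      (∀ ε : ℝ, 0 < ε → 8 * K ^ p - 2 * 2 ^ p < ε ^ p →
        ∃ δ : ℝ, 0 < δ ∧ ∀ x y : X, ‖x‖ ≤ 1 → ‖y‖ ≤ 1 → ε ≤ ‖x - y‖ →
          ‖(1 / 2 : ℝ) • (x + y)‖ ≤ 1 - δ)) ∧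
    (HasMarkovType X 2 1 →
      (∀ u v : X, ‖u + v‖ ^ 2 + ‖u - v‖ ^ 2 = 2 * (‖u‖ ^ 2 + ‖v‖ ^ 2)) ∧
      (∀ ε : ℝ, 0 < ε → ∃ δ : ℝ, 0 < δ ∧ ∀ x y : X, ‖x‖ ≤ 1 → ‖y‖ ≤ 1 → ε ≤ ‖x - y‖ →
          ‖(1 / 2 : ℝ) • (x + y)‖ ≤ 1 - δ) ∧
      (∀ τ : ℝ, 0 < τ → ∀ x y : X, ‖x‖ = 1 → ‖y‖ = 1 →
          (‖x + τ • y‖ + ‖x - τ • y‖) / 2 - 1 ≤ τ ^ 2 / 2)) :=
  ⟨fun p K hp hK h hKp => Vale.Agent.Results.P125.JConvexSmallK.result X p K hp hK h hKp,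
   fun p K hp h => Vale.Agent.Results.P125.ConvexityModulus.result X p K hp h,
   fun h => Vale.Agent.Results.P125.ConstantOne.result X h⟩

end Vale.Agent.Results.P125.A_Combined
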