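import Vale.Agent.Lib.P125.Cube

namespace Vale.Agent.Results.P125.ConstantOne

open Vale.Agent.Lib.P125

/-- Markov type 2 with constant 1 forces the parallelogram law; hence the given norm is itself
uniformly convex and uniformly smooth of power type 2. -/
theorem result (X : Type*) [NormedAddCommGroup X] [NormedSpace ℝ X]
    (h : HasMarkovType X 2 1) :
    (∀ u v : X, ‖u + v‖ ^ 2 + ‖u - v‖ ^ 2 = 2 * (‖u‖ ^ 2 + ‖v‖ ^ 2)) ∧
    (∀ ε : ℝ, 0 < ε → ∃ δ : ℝ, 0 < δ ∧ ∀ x y : X, ‖x‖ ≤ 1 → ‖y‖ ≤ 1 → ε ≤ ‖x - y‖ →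
        ‖(1 / 2 : ℝ) • (x + y)‖ ≤ 1 - δ) ∧
    (∀ τ : ℝ, 0 < τ → ∀ x y : X, ‖x‖ = 1 → ‖y‖ = 1 →
        (‖x + τ • y‖ + ‖x - τ • y‖) / 2 - 1 ≤ τ ^ 2 / 2) := by
  have ineq : ∀ u v : X, ‖u + v‖ ^ 2 + ‖u - v‖ ^ 2 ≤ 2 * (‖u‖ ^ 2 + ‖v‖ ^ 2) := by
    intro u v
    have H := nj_ineq (by norm_num : (0:ℝ) < 2) h u v
    simp only [Real.rpow_two] at H
    norm_num at H
    linarith
  have par : ∀ u v : X, ‖u + v‖ ^ 2 + ‖u - v‖ ^ 2 = 2 * (‖u‖ ^ 2 + ‖v‖ ^ 2) := by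
    intro u v
    apply le_antisymm (ineq u v)
    have H := ineq (u + v) (u - v)
    have e1 : u + v + (u - v) = (2:ℝ) • u := by rw [two_smul]; abel
    have e2 : u + v - (u - v) = (2:ℝ) • v := by rw [two_smul]; abel
    rw [e1, e2, norm_smul, norm_smul] at H
    norm_num at H
    nlinarith [H]
  refine ⟨par, ?_, ?_⟩
  · intro ε hε
    -- δ = 1 - sqrt (1 - ε^2/4) ; use an explicit smaller δ
    by_cases hε2 : ε ≤ 2
    · refine ⟨ε ^ 2 / 8, by positivity, ?_⟩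
      intro x y hx hy hxy
      have H := par x y
      have hx2 : ‖x‖ ^ 2 ≤ 1 := by nlinarith [norm_nonneg x]
      have hy2 : ‖y‖ ^ 2 ≤ 1 := by nlinarith [norm_nonneg y]
      have hxy2 : ε ^ 2 ≤ ‖x - y‖ ^ 2 := by nlinarith [norm_nonneg (x - y)]
      have hs : ‖x + y‖ ^ 2 ≤ 4 - ε ^ 2 := by linarith
      rw [norm_smul]
      norm_num
      have hn := norm_nonneg (x + y)
      nlinarith [sq_nonneg (ε ^ 2)]
    · refine ⟨1, by norm_num, ?_⟩
      intro x y hx hy hxy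
      exfalso
      have := norm_sub_le x y
      linarith
  · intro τ hτ x y hx hy
    have H := par x (τ • y)
    rw [norm_smul, hx, hy] at H
    simp only [Real.norm_eq_abs, mul_one, one_pow, sq_abs] at H
    have ha := norm_nonneg (x + τ • y)
    have hb := norm_nonneg (x - τ • y)
    nlinarith [sq_nonneg (‖x + τ • y‖ - ‖x - τ • y‖), sq_nonneg (τ ^ 2)]

end Vale.Agent.Results.P125.ConstantOne
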